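import Vale.Agent.Results.P317.KPavingDensity

/-!
P317 (approximate counting for matroid intersection): the density bound for common bases when
one of the two matroids has no small circuits, stated with Mathlib notions only.

Let `M₁`, `M₂` be matroids on the same ground set inside a finite type, with at least one common
base.  Suppose every base of `M₂` has `r` elements and every circuit of `M₂` has at least `r - k`
elements (for `k = 0` this says that `M₂` is a paving matroid of rank `r`).  Then the bases of
`M₁` are at most `(n + 1) ^ (4 k + 2)` times as many as the common bases of `M₁` and `M₂`, where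
`n` is the number of elements of the ground set.

Bases are counted as subsets of the type: `Nat.card` of the subtype of all sets that are bases.
-/

namespace Vale.Agent.Results.P317.CommonBasesPlain

theorem result {α : Type*} [Fintype α] (M₁ M₂ : Matroid α) (r k : ℕ)
    (hE : M₁.E = M₂.E)
    (hbase : ∀ B : Set α, M₂.IsBase B → B.ncard = r)
    (hcirc : ∀ C : Set α, M₂.IsCircuit C → r ≤ C.ncard + k)
    (hne : ∃ B : Set α, M₁.IsBase B ∧ M₂.IsBase B) :
    Nat.card {B : Set α // M₁.IsBase B} ≤
      (M₁.E.ncard + 1) ^ (4 * k + 2) *
        Nat.card {B : Set α // M₁.IsBase B ∧ M₂.IsBase B} := by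
  classical
  have key : ∀ p : Set α → Prop,
      Nat.card {B : Set α // p B} =
        (Finset.univ.filter (fun B : Finset α => p (B : Set α))).card := by
    intro p
    have e : {B : Finset α // p (B : Set α)} ≃ {B : Set α // p B} :=
      Equiv.subtypeEquiv Fintype.finsetEquivSet (fun B => by simp)
    rw [← Nat.card_congr e, Nat.card_eq_fintype_card, Fintype.card_subtype]
  have hb : Finset.univ.filter (fun B : Finset α => M₁.IsBase (B : Set α)) =
      KPavingDensity.bases M₁ := by
    ext B; simp [KPavingDensity.bases]
  have hc : Finset.univ.filter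
      (fun B : Finset α => M₁.IsBase (B : Set α) ∧ M₂.IsBase (B : Set α)) =
      KPavingDensity.commonBases M₁ M₂ := by
    ext B; simp [KPavingDensity.commonBases]
  have hne' : (KPavingDensity.commonBases M₁ M₂).Nonempty := by
    obtain ⟨B, hB1, hB2⟩ := hne
    refine ⟨(Set.toFinite B).toFinset, ?_⟩
    rw [← hc]
    simp [hB1, hB2]
  have hpav : KPavingDensity.IsKPaving M₂ r (k + 1) :=
    ⟨hbase, fun C hC => by have := hcirc C hC; omega⟩
  have hmain := (KPavingDensity.result M₁ M₂ r (k + 1) hE hpav hne').2
  have hexp : 4 * (k + 1) - 2 = 4 * k + 2 := by omega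
  rw [hexp] at hmain
  have h1 : Nat.card {B : Set α // M₁.IsBase B} = (KPavingDensity.bases M₁).card := by
    rw [← hb]; exact key _
  have h2 : Nat.card {B : Set α // M₁.IsBase B ∧ M₂.IsBase B} =
      (KPavingDensity.commonBases M₁ M₂).card := by
    rw [key (fun B => M₁.IsBase B ∧ M₂.IsBase B)]
    congr 1
    ext B
    simp [KPavingDensity.commonBases]
  rw [h1, h2]
  exact hmain

end Vale.Agent.Results.P317.CommonBasesPlain
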