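import Mathlib

namespace Vale.Agent.Results.P317.KPavingDensity

open Finset

variable {α : Type*}

/-- `M` is a `k`-paving matroid of rank `r`: every base has `r` elements and every circuit has
more than `r - k` elements (for `k = 1` this is the class of paving matroids of rank `r`, for
`k = 0` the uniform matroids of rank `r`). -/
def IsKPaving (M : Matroid α) (r k : ℕ) : Prop :=
  (∀ B : Set α, M.IsBase B → B.ncard = r) ∧ ∀ C : Set α, M.IsCircuit C → r < C.ncard + k

/-- The finite family of bases of `M`, as finsets. -/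
noncomputable def bases [Fintype α] [DecidableEq α] (M : Matroid α) : Finset (Finset α) := by
  classical exact Finset.univ.filter (fun B : Finset α => M.IsBase (B : Set α))

/-- The finite family of common bases of `M₁` and `M₂`, as finsets. -/
noncomputable def commonBases [Fintype α] [DecidableEq α] (M₁ M₂ : Matroid α) :
    Finset (Finset α) := by
  classical exact
    Finset.univ.filter (fun B : Finset α => M₁.IsBase (B : Set α) ∧ M₂.IsBase (B : Set α))

/-- Exchange along a fundamental circuit. -/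
lemma exchange_base {M : Matroid α} {Bs : Set α} (hBs : M.IsBase Bs) {b f : α}
    (hbE : b ∈ M.E) (hb : b ∉ Bs) (hf : f ∈ M.fundCircuit b Bs) (hfb : f ≠ b) :
    M.IsBase (insert b Bs \ {f}) := by
  have hecl : b ∈ M.closure Bs := by rw [hBs.closure_eq]; exact hbE
  have hind := (hBs.indep.mem_fundCircuit_iff hecl hb).1 hf
  have hfBs : f ∈ Bs := by
    rcases M.fundCircuit_subset_insert b Bs hf with h | h
    · exact absurd h hfb
    · exact h
  exact hBs.exchange_isBase_of_indep' hfBs hb hind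

/-- A double exchange: if `f` lies on the fundamental circuit of `b` but not on that of `b'`,
and `f'` lies on the fundamental circuit of `b'`, then both exchanges can be done at once. -/
lemma double_exchange {M : Matroid α} {Bs : Set α} (hBs : M.IsBase Bs) {b b' f f' : α}
    (hbE : b ∈ M.E) (hb'E : b' ∈ M.E) (hb : b ∉ Bs) (hb' : b' ∉ Bs) (hbb' : b ≠ b')
    (hf : f ∈ Bs) (hf' : f' ∈ Bs)
    (h1 : f ∈ M.fundCircuit b Bs) (h2 : f ∉ M.fundCircuit b' Bs)
    (h3 : f' ∈ M.fundCircuit b' Bs) :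
    M.IsBase (insert b' (insert b Bs \ {f}) \ {f'}) := by
  have hfb : f ≠ b := fun h => hb (h ▸ hf)
  have hf'b' : f' ≠ b' := fun h => hb' (h ▸ hf')
  have hB₂ : M.IsBase (insert b Bs \ {f}) := exchange_base hBs hbE hb h1 hfb
  have hC' : M.IsCircuit (M.fundCircuit b' Bs) := hBs.fundCircuit_isCircuit hb'E hb'
  have hsub : M.fundCircuit b' Bs ⊆ insert b' (insert b Bs \ {f}) := by
    intro x hx
    rcases M.fundCircuit_subset_insert b' Bs hx with h | h
    · exact Or.inl h
    · refine Or.inr ⟨Or.inr h, ?_⟩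
      intro hxf
      rw [Set.mem_singleton_iff] at hxf
      exact h2 (hxf ▸ hx)
  have heq := hC'.eq_fundCircuit_of_subset hB₂.indep hsub
  have hb'B₂ : b' ∉ insert b Bs \ {f} := by
    rintro ⟨h | h, -⟩
    · exact hbb' h.symm
    · exact hb' h
  have h3' : f' ∈ M.fundCircuit b' (insert b Bs \ {f}) := heq ▸ h3
  exact exchange_base hB₂ hb'E hb'B₂ h3' hf'b'


/-- The number of subsets of `E` with at most `m` elements is at most the `m`-th power of `|E| + 1`. -/
lemma card_small_le [DecidableEq α] (E : Finset α) (m : ℕ) :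
    ((E.powerset).filter (fun S => S.card ≤ m)).card ≤ (E.card + 1) ^ m := by
  induction m with
  | zero =>
    have h : (E.powerset).filter (fun S => S.card ≤ 0) ⊆ {∅} := by
      intro S hS
      rw [Finset.mem_filter] at hS
      rw [Finset.mem_singleton]
      exact Finset.card_eq_zero.1 (Nat.le_zero.1 hS.2)
    simpa using Finset.card_le_card h
  | succ m ih =>
    have hsub : (E.powerset).filter (fun S => S.card ≤ m + 1) ⊆
        (E.powerset).filter (fun S => S.card ≤ m) ∪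
          (E ×ˢ (E.powerset).filter (fun S => S.card ≤ m)).image
            (fun p => insert p.1 p.2) := by
      intro S hS
      rw [Finset.mem_filter, Finset.mem_powerset] at hS
      obtain ⟨hSE, hc⟩ := hS
      rw [Finset.mem_union]
      by_cases h : S.card ≤ m
      · left
        rw [Finset.mem_filter, Finset.mem_powerset]
        exact ⟨hSE, h⟩
      · right
        have hne : S.Nonempty := Finset.card_pos.1 (by omega)
        obtain ⟨x, hx⟩ := hne
        rw [Finset.mem_image]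
        refine ⟨(x, S.erase x), ?_, Finset.insert_erase hx⟩
        rw [Finset.mem_product, Finset.mem_filter, Finset.mem_powerset]
        refine ⟨hSE hx, (Finset.erase_subset x S).trans hSE, ?_⟩
        rw [Finset.card_erase_of_mem hx]
        omega
    calc ((E.powerset).filter (fun S => S.card ≤ m + 1)).card
        ≤ ((E.powerset).filter (fun S => S.card ≤ m) ∪
          (E ×ˢ (E.powerset).filter (fun S => S.card ≤ m)).image
            (fun p => insert p.1 p.2)).card := Finset.card_le_card hsub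
      _ ≤ ((E.powerset).filter (fun S => S.card ≤ m)).card +
          (E ×ˢ (E.powerset).filter (fun S => S.card ≤ m)).card :=
          (Finset.card_union_le _ _).trans (Nat.add_le_add_left Finset.card_image_le _)
      _ = (E.card + 1) * ((E.powerset).filter (fun S => S.card ≤ m)).card := by
          rw [Finset.card_product]; ring
      _ ≤ (E.card + 1) * (E.card + 1) ^ m := Nat.mul_le_mul_left _ ih
      _ = (E.card + 1) ^ (m + 1) := by ring

/-- Key lemma: if `Bs` is a common base closest to the base `B` of `M₁`, and `M₂` is `k`-paving,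
then `B` and `Bs` differ by at most `2k - 1` exchanges. -/
lemma close_common_base [Fintype α] [DecidableEq α] (M₁ M₂ : Matroid α) (r k : ℕ)
    (hE : M₁.E = M₂.E) (h2 : IsKPaving M₂ r k)
    {B Bs : Set α} (hB : M₁.IsBase B) (hBs1 : M₁.IsBase Bs) (hBs2 : M₂.IsBase Bs)
    (hmin : ∀ Z : Set α, M₁.IsBase Z → M₂.IsBase Z → (B \ Bs).ncard ≤ (B \ Z).ncard) :
    (B \ Bs).ncard ≤ 2 * k - 1 := by
  classical
  by_contra hcon
  push Not at hcon
  -- a common base containing `B ∩ Bs` and one more element of `B` contradicts minimality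
  have hdecr : ∀ Z : Set α, M₁.IsBase Z → M₂.IsBase Z → (∀ x, x ∈ B → x ∈ Bs → x ∈ Z) →
      (∃ b, b ∈ B ∧ b ∉ Bs ∧ b ∈ Z) → False := by
    intro Z hZ1 hZ2 hsub ⟨b, hbB, hbBs, hbZ⟩
    have hss : B \ Z ⊂ B \ Bs := by
      refine ⟨fun x hx => ⟨hx.1, fun hxBs => hx.2 (hsub x hx.1 hxBs)⟩, fun h => ?_⟩
      exact (h ⟨hbB, hbBs⟩).2 hbZ
    have h1 := Set.ncard_lt_ncard hss (Set.toFinite _)
    have h3 := hmin Z hZ1 hZ2
    omega
  obtain ⟨D, hDmem⟩ : ∃ D : Finset α, ∀ x, x ∈ D ↔ x ∈ B ∧ x ∉ Bs :=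
    ⟨Finset.univ.filter (fun x => x ∈ B ∧ x ∉ Bs), fun x => by simp⟩
  obtain ⟨R, hRmem⟩ : ∃ R : Finset α, ∀ x, x ∈ R ↔ x ∈ Bs ∧ x ∉ B :=
    ⟨Finset.univ.filter (fun x => x ∈ Bs ∧ x ∉ B), fun x => by simp⟩
  have hDcard : D.card = (B \ Bs).ncard := by
    rw [← Set.ncard_coe_finset]
    congr 1
    ext x
    simp [hDmem]
  obtain ⟨X, hXmem⟩ : ∃ X : α → Finset α,
      ∀ b f, f ∈ X b ↔ f ∈ R ∧ f ∈ M₁.fundCircuit b Bs :=
    ⟨fun b => R.filter (fun f => f ∈ M₁.fundCircuit b Bs), fun b f => by simp⟩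
  obtain ⟨K, hKmem⟩ : ∃ K : α → Finset α,
      ∀ b f, f ∈ K b ↔ f ∈ R ∧ f ∉ M₂.fundCircuit b Bs :=
    ⟨fun b => R.filter (fun f => f ∉ M₂.fundCircuit b Bs), fun b f => by simp⟩
  -- Step 1: `X b ⊆ K b`
  have hXK : ∀ b ∈ D, X b ⊆ K b := by
    intro b hb f hf
    obtain ⟨hbB, hbBs⟩ := (hDmem b).1 hb
    obtain ⟨hfR, hf1⟩ := (hXmem b f).1 hf
    obtain ⟨hfBs, hfB⟩ := (hRmem f).1 hfR
    refine (hKmem b f).2 ⟨hfR, fun hf2 => ?_⟩
    have hfb : f ≠ b := fun h => hbBs (h ▸ hfBs)
    have hbE1 : b ∈ M₁.E := hB.subset_ground hbB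
    have hbE2 : b ∈ M₂.E := hE ▸ hbE1
    have hZ1 := exchange_base hBs1 hbE1 hbBs hf1 hfb
    have hZ2 := exchange_base hBs2 hbE2 hbBs hf2 hfb
    refine hdecr _ hZ1 hZ2 ?_ ⟨b, hbB, hbBs, ?_⟩
    · intro x hxB hxBs
      refine ⟨Or.inr hxBs, fun h => hfB ?_⟩
      rw [Set.mem_singleton_iff] at h
      exact h ▸ hxB
    · refine ⟨Or.inl rfl, fun h => hfb ?_⟩
      rw [Set.mem_singleton_iff] at h
      exact h.symm
  -- Step 2: `K b` has at most `k` elements
  have hKcard : ∀ b ∈ D, (K b).card ≤ k := by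
    intro b hb
    obtain ⟨hbB, hbBs⟩ := (hDmem b).1 hb
    have hbE2 : b ∈ M₂.E := hE ▸ hB.subset_ground hbB
    have hC : M₂.IsCircuit (M₂.fundCircuit b Bs) := hBs2.fundCircuit_isCircuit hbE2 hbBs
    have hlt := h2.2 _ hC
    have hbC : b ∈ M₂.fundCircuit b Bs := M₂.mem_fundCircuit b Bs
    have hsub : (↑(K b) : Set α) ∪ (M₂.fundCircuit b Bs \ {b}) ⊆ Bs := by
      intro x hx
      rcases hx with hx | hx
      · have hx' : x ∈ K b := by exact_mod_cast hx
        exact ((hRmem x).1 ((hKmem b x).1 hx').1).1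
      · rcases M₂.fundCircuit_subset_insert b Bs hx.1 with h | h
        · exact absurd h hx.2
        · exact h
    have hdisj : Disjoint (↑(K b) : Set α) (M₂.fundCircuit b Bs \ {b}) := by
      rw [Set.disjoint_left]
      intro x hx hx'
      have hx'' : x ∈ K b := by exact_mod_cast hx
      exact ((hKmem b x).1 hx'').2 hx'.1
    have h1 := Set.ncard_le_ncard hsub (Set.toFinite _)
    rw [Set.ncard_union_eq hdisj (Set.toFinite _) (Set.toFinite _), Set.ncard_coe_finset,
      Set.ncard_sdiff_singleton_of_mem hbC, h2.1 _ hBs2] at h1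
    have hpos : 0 < (M₂.fundCircuit b Bs).ncard :=
      (Set.ncard_pos (Set.toFinite _)).2 ⟨b, hbC⟩
    omega
  -- Step 3: `X b` is nonempty
  have hXne : ∀ b ∈ D, (X b).Nonempty := by
    intro b hb
    obtain ⟨hbB, hbBs⟩ := (hDmem b).1 hb
    have hbE1 : b ∈ M₁.E := hB.subset_ground hbB
    have hC : M₁.IsCircuit (M₁.fundCircuit b Bs) := hBs1.fundCircuit_isCircuit hbE1 hbBs
    by_contra hne
    rw [Finset.not_nonempty_iff_eq_empty] at hne
    apply hC.not_indep
    apply hB.indep.subset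
    intro x hx
    rcases M₁.fundCircuit_subset_insert b Bs hx with h | h
    · exact h ▸ hbB
    · by_contra hxB
      have hxX : x ∈ X b := (hXmem b x).2 ⟨(hRmem x).2 ⟨h, hxB⟩, hx⟩
      rw [hne] at hxX
      exact absurd hxX (Finset.notMem_empty x)
  -- Step 4: Hall's condition
  have hHall : ∀ s : Finset D, s.card ≤ (s.biUnion (fun b => X (b : α))).card := by
    intro s
    obtain ⟨U, hU⟩ : ∃ U : Finset α, U = s.biUnion (fun b => X (b : α)) := ⟨_, rfl⟩
    obtain ⟨S, hS⟩ : ∃ S : Finset α, S = s.map ⟨Subtype.val, Subtype.val_injective⟩ := ⟨_, rfl⟩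
    rw [← hU]
    have hScard : S.card = s.card := by rw [hS]; exact Finset.card_map _
    have hSD : ∀ x ∈ S, x ∈ D := by
      intro x hx
      rw [hS, Finset.mem_map] at hx
      obtain ⟨y, -, rfl⟩ := hx
      exact y.2
    have hUR : ∀ x ∈ U, x ∈ R := by
      intro x hx
      rw [hU, Finset.mem_biUnion] at hx
      obtain ⟨y, -, hy⟩ := hx
      exact ((hXmem _ _).1 hy).1
    have hJ : M₁.Indep ((B ∩ Bs) ∪ ↑U) := by
      apply hBs1.indep.subset
      rintro x (hx | hx)
      · exact hx.2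
      · exact ((hRmem x).1 (hUR x (by exact_mod_cast hx))).1
    have hT : M₁.Indep ((B ∩ Bs) ∪ ↑S) := by
      apply hB.indep.subset
      rintro x (hx | hx)
      · exact hx.1
      · exact ((hDmem x).1 (hSD x (by exact_mod_cast hx))).1
    have hTJ : (B ∩ Bs) ∪ ↑S ⊆ M₁.closure ((B ∩ Bs) ∪ ↑U) := by
      rintro x (hx | hx)
      · exact M₁.subset_closure _ hJ.subset_ground (Or.inl hx)
      · have hxS : x ∈ S := by exact_mod_cast hx
        rw [hS, Finset.mem_map] at hxS
        obtain ⟨y, hys, rfl⟩ := hxS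
        obtain ⟨hbB, hbBs⟩ := (hDmem y).1 y.2
        have hbE1 : (y : α) ∈ M₁.E := hB.subset_ground hbB
        have hC : M₁.IsCircuit (M₁.fundCircuit (y : α) Bs) :=
          hBs1.fundCircuit_isCircuit hbE1 hbBs
        have hmem := hC.mem_closure_sdiff_singleton_of_mem (M₁.mem_fundCircuit (y : α) Bs)
        refine M₁.closure_subset_closure ?_ hmem
        intro z hz
        rcases M₁.fundCircuit_subset_insert (y : α) Bs hz.1 with h | h
        · exact absurd h hz.2
        · by_cases hzB : z ∈ B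
          · exact Or.inl ⟨hzB, h⟩
          · right
            have hzU : z ∈ U := by
              rw [hU, Finset.mem_biUnion]
              exact ⟨y, hys, (hXmem _ _).2 ⟨(hRmem z).2 ⟨h, hzB⟩, hz.1⟩⟩
            exact_mod_cast hzU
    have hle : ((B ∩ Bs) ∪ ↑S).encard ≤ ((B ∩ Bs) ∪ ↑U).encard := by
      calc ((B ∩ Bs) ∪ ↑S).encard = M₁.eRk ((B ∩ Bs) ∪ ↑S) := hT.eRk_eq_encard.symm
        _ ≤ M₁.eRk (M₁.closure ((B ∩ Bs) ∪ ↑U)) := M₁.eRk_mono hTJ
        _ = M₁.eRk ((B ∩ Bs) ∪ ↑U) := M₁.eRk_closure_eq _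
        _ = ((B ∩ Bs) ∪ ↑U).encard := hJ.eRk_eq_encard
    have hle' : ((B ∩ Bs) ∪ ↑S).ncard ≤ ((B ∩ Bs) ∪ ↑U).ncard := by
      have h1 := (Set.toFinite ((B ∩ Bs) ∪ (↑S : Set α))).cast_ncard_eq
      have h3 := (Set.toFinite ((B ∩ Bs) ∪ (↑U : Set α))).cast_ncard_eq
      rw [← h1, ← h3] at hle
      exact_mod_cast hle
    have hd1 : Disjoint (B ∩ Bs) (↑S : Set α) := by
      rw [Set.disjoint_left]
      intro x hx hx'
      exact ((hDmem x).1 (hSD x (by exact_mod_cast hx'))).2 hx.2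
    have hd2 : Disjoint (B ∩ Bs) (↑U : Set α) := by
      rw [Set.disjoint_left]
      intro x hx hx'
      exact ((hRmem x).1 (hUR x (by exact_mod_cast hx'))).2 hx.1
    rw [Set.ncard_union_eq hd1 (Set.toFinite _) (Set.toFinite _),
      Set.ncard_union_eq hd2 (Set.toFinite _) (Set.toFinite _), Set.ncard_coe_finset,
      Set.ncard_coe_finset] at hle'
    omega
  obtain ⟨f, hfinj, hfX⟩ := (Finset.all_card_le_biUnion_card_iff_exists_injective
    (fun b : D => X (b : α))).1 hHall
  -- Step 5: sizes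
  have ht : 2 * k - 1 < D.card := by rw [hDcard]; exact hcon
  have hDne : D.Nonempty := Finset.card_pos.1 (by omega)
  obtain ⟨b₀, hb₀⟩ := hDne
  have hk : 1 ≤ k := by
    have h1 := hKcard b₀ hb₀
    have h3 := Finset.card_le_card (hXK b₀ hb₀)
    have h4 := Finset.card_pos.2 (hXne b₀ hb₀)
    omega
  have ht2 : 2 * k ≤ D.card := by omega
  -- Step 6: a good pair
  have hgood : ∃ b b' : D, b ≠ b' ∧ f b' ∉ K (b : α) ∧ f b ∉ K (b' : α) := by
    by_contra hno
    push Not at hno
    obtain ⟨P, hPmem⟩ : ∃ P : Finset (D × D),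
        ∀ p, p ∈ P ↔ p.1 ≠ p.2 ∧ f p.2 ∈ K (p.1 : α) :=
      ⟨Finset.univ.filter (fun p => p.1 ≠ p.2 ∧ f p.2 ∈ K (p.1 : α)), fun p => by simp⟩
    have hPcard : P.card ≤ D.card * (k - 1) := by
      have h1 : P.card = ∑ b : D, (P.filter (fun p => p.1 = b)).card :=
        Finset.card_eq_sum_card_fiberwise (fun x _ => Finset.mem_univ _)
      rw [h1]
      have h3 : ∀ b : D, (P.filter (fun p => p.1 = b)).card ≤ k - 1 := by
        intro b
        have h4 : (P.filter (fun p => p.1 = b)).card ≤ ((K (b : α)).erase (f b)).card := by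
          apply Finset.card_le_card_of_injOn (fun p => f p.2)
          · intro p hp
            rw [Finset.mem_coe, Finset.mem_filter, hPmem] at hp
            obtain ⟨⟨hne, hmem⟩, rfl⟩ := hp
            rw [Finset.mem_coe, Finset.mem_erase]
            exact ⟨fun h => hne (hfinj h).symm, hmem⟩
          · intro p hp q hq hpq
            rw [Finset.mem_coe, Finset.mem_filter] at hp hq
            exact Prod.ext (hp.2.trans hq.2.symm) (hfinj hpq)
        have h5 : ((K (b : α)).erase (f b)).card = (K (b : α)).card - 1 :=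
          Finset.card_erase_of_mem (hXK b b.2 (hfX b))
        have h6 := hKcard b b.2
        omega
      calc ∑ b : D, (P.filter (fun p => p.1 = b)).card ≤ ∑ _b : D, (k - 1) :=
            Finset.sum_le_sum (fun b _ => h3 b)
        _ = D.card * (k - 1) := by simp
    have hoff : (Finset.univ : Finset D).offDiag ⊆ P ∪ P.image Prod.swap := by
      intro p hp
      rw [Finset.mem_offDiag] at hp
      obtain ⟨-, -, hne⟩ := hp
      rw [Finset.mem_union]
      by_cases h : f p.2 ∈ K (p.1 : α)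
      · left
        exact (hPmem p).2 ⟨hne, h⟩
      · right
        rw [Finset.mem_image]
        exact ⟨(p.2, p.1), (hPmem _).2 ⟨hne.symm, hno p.1 p.2 hne h⟩, rfl⟩
    have h1 := Finset.card_le_card hoff
    have h3 := Finset.card_union_le P (P.image Prod.swap)
    have h4 : (P.image Prod.swap).card ≤ P.card := Finset.card_image_le
    rw [Finset.offDiag_card, Finset.card_univ, Fintype.card_coe] at h1
    obtain ⟨k', rfl⟩ : ∃ k', k = k' + 1 := ⟨k - 1, by omega⟩
    simp only [Nat.add_sub_cancel] at hPcard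
    have h5 : D.card * (2 * k' + 2) ≤ D.card * D.card := Nat.mul_le_mul_left _ (by omega)
    have h6 : 0 < D.card := by omega
    have h7 : D.card ≤ D.card * D.card := Nat.le_mul_self _
    have h8 : D.card * (2 * k' + 2) = 2 * (D.card * k') + 2 * D.card := by ring
    rw [h8] at h5
    generalize D.card * D.card = a at h1 h5 h7
    generalize D.card * k' = c at hPcard h5
    omega
  -- Step 7: the double exchange
  obtain ⟨b, b', hbb', hg1, hg2⟩ := hgood
  obtain ⟨hbB, hbBs⟩ := (hDmem b).1 b.2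
  obtain ⟨hb'B, hb'Bs⟩ := (hDmem b').1 b'.2
  have hbE1 : (b : α) ∈ M₁.E := hB.subset_ground hbB
  have hb'E1 : (b' : α) ∈ M₁.E := hB.subset_ground hb'B
  have hbE2 : (b : α) ∈ M₂.E := hE ▸ hbE1
  have hb'E2 : (b' : α) ∈ M₂.E := hE ▸ hb'E1
  have hne : (b : α) ≠ (b' : α) := fun h => hbb' (Subtype.ext h)
  obtain ⟨hfR, hf1⟩ := (hXmem _ _).1 (hfX b)
  obtain ⟨hf'R, hf'1⟩ := (hXmem _ _).1 (hfX b')
  obtain ⟨hfBs, hfB⟩ := (hRmem _).1 hfR
  obtain ⟨hf'Bs, hf'B⟩ := (hRmem _).1 hf'R
  have hfn2 : f b ∉ M₂.fundCircuit (b : α) Bs := ((hKmem _ _).1 (hXK b b.2 (hfX b))).2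
  have hf'2 : f b' ∈ M₂.fundCircuit (b : α) Bs := by
    by_contra h
    exact hg1 ((hKmem _ _).2 ⟨hf'R, h⟩)
  have hf2 : f b ∈ M₂.fundCircuit (b' : α) Bs := by
    by_contra h
    exact hg2 ((hKmem _ _).2 ⟨hfR, h⟩)
  have hfn1 : f b ∉ M₁.fundCircuit (b' : α) Bs := by
    intro h
    have h3 : f b ∈ X (b' : α) := (hXmem _ _).2 ⟨hfR, h⟩
    exact ((hKmem _ _).1 (hXK b' b'.2 h3)).2 hf2
  have hZ1 := double_exchange hBs1 hbE1 hb'E1 hbBs hb'Bs hne hfBs hf'Bs hf1 hfn1 hf'1
  have hZ2 := double_exchange hBs2 hb'E2 hbE2 hb'Bs hbBs hne.symm hfBs hf'Bs hf2 hfn2 hf'2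
  have hbf : (b : α) ≠ f b := fun h => hbBs (h ▸ hfBs)
  have hbf' : (b : α) ≠ f b' := fun h => hbBs (h ▸ hf'Bs)
  have hb'f : (b' : α) ≠ f b := fun h => hb'Bs (h ▸ hfBs)
  have hZeq : insert (b : α) (insert (b' : α) Bs \ {f b}) \ {f b'} =
      insert (b' : α) (insert (b : α) Bs \ {f b}) \ {f b'} := by
    ext x
    simp only [Set.mem_sdiff, Set.mem_insert_iff, Set.mem_singleton_iff]
    constructor
    · rintro ⟨h | ⟨h | h, h'⟩, h''⟩
      · exact ⟨Or.inr ⟨Or.inl h, fun hx => hbf (h ▸ hx)⟩, h''⟩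
      · exact ⟨Or.inl h, h''⟩
      · exact ⟨Or.inr ⟨Or.inr h, h'⟩, h''⟩
    · rintro ⟨h | ⟨h | h, h'⟩, h''⟩
      · exact ⟨Or.inr ⟨Or.inl h, fun hx => hb'f (h ▸ hx)⟩, h''⟩
      · exact ⟨Or.inl h, h''⟩
      · exact ⟨Or.inr ⟨Or.inr h, h'⟩, h''⟩
  rw [hZeq] at hZ2
  refine hdecr _ hZ1 hZ2 ?_ ⟨b, hbB, hbBs, ?_⟩
  · intro x hxB hxBs
    refine ⟨Or.inr ⟨Or.inr hxBs, fun h => hfB ?_⟩, fun h => hf'B ?_⟩
    · rw [Set.mem_singleton_iff] at h
      exact h ▸ hxB
    · rw [Set.mem_singleton_iff] at h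
      exact h ▸ hxB
  · refine ⟨Or.inr ⟨Or.inl rfl, fun h => hbf ?_⟩, fun h => hbf' ?_⟩
    · rw [Set.mem_singleton_iff] at h
      exact h
    · rw [Set.mem_singleton_iff] at h
      exact h

/-- **`k`-paving density bound.**  Let `M₁`, `M₂` be matroids on the same finite ground set,
`M₂` being `k`-paving of rank `r`, with at least one common base.  Then every base of `M₁` can be
turned into a common base by exchanging at most `2k - 1` elements, and consequently the bases of
`M₁` are at most `n + 1` to the power `4k - 2` times as many as the common bases (`n` the size of the ground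
set). -/
theorem result [Fintype α] [DecidableEq α] (M₁ M₂ : Matroid α) (r k : ℕ)
    (hE : M₁.E = M₂.E) (h2 : IsKPaving M₂ r k)
    (hne : (commonBases M₁ M₂).Nonempty) :
    (∀ B ∈ bases M₁, ∃ B' ∈ commonBases M₁ M₂, (B \ B').card ≤ 2 * k - 1) ∧
      (bases M₁).card ≤ (M₁.E.ncard + 1) ^ (4 * k - 2) * (commonBases M₁ M₂).card := by
  classical
  have hmemB : ∀ B : Finset α, B ∈ bases M₁ ↔ M₁.IsBase (B : Set α) := by
    intro B; simp [bases]
  have hmemN : ∀ B : Finset α,
      B ∈ commonBases M₁ M₂ ↔ M₁.IsBase (B : Set α) ∧ M₂.IsBase (B : Set α) := by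
    intro B; simp [commonBases]
  obtain ⟨B₀, hB₀⟩ := hne
  obtain ⟨hB₀1, hB₀2⟩ := (hmemN B₀).1 hB₀
  have hpart1 : ∀ B ∈ bases M₁, ∃ B' ∈ commonBases M₁ M₂, (B \ B').card ≤ 2 * k - 1 := by
    intro B hB
    have hB1 := (hmemB B).1 hB
    have hfin : {Z : Set α | M₁.IsBase Z ∧ M₂.IsBase Z}.Finite := Set.toFinite _
    obtain ⟨Bs, ⟨hBs1, hBs2⟩, hmin⟩ :=
      Set.exists_min_image {Z : Set α | M₁.IsBase Z ∧ M₂.IsBase Z}
        (fun Z => ((B : Set α) \ Z).ncard) hfin ⟨(B₀ : Set α), hB₀1, hB₀2⟩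
    have hclose := close_common_base M₁ M₂ r k hE h2 hB1 hBs1 hBs2
      (fun Z hZ1 hZ2 => hmin Z ⟨hZ1, hZ2⟩)
    obtain ⟨Bf, hBf⟩ : ∃ Bf : Finset α, (Bf : Set α) = Bs :=
      ⟨(Set.toFinite Bs).toFinset, Set.Finite.coe_toFinset _⟩
    refine ⟨Bf, (hmemN Bf).2 (by rw [hBf]; exact ⟨hBs1, hBs2⟩), ?_⟩
    have hcoe : ((B \ Bf : Finset α) : Set α) = (B : Set α) \ Bs := by
      rw [Finset.coe_sdiff, hBf]
    rw [← Set.ncard_coe_finset, hcoe]
    exact hclose
  refine ⟨hpart1, ?_⟩
  choose! g hg using hpart1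
  obtain ⟨Ef, hEf⟩ : ∃ Ef : Finset α, ∀ x, x ∈ Ef ↔ x ∈ M₁.E :=
    ⟨Finset.univ.filter (fun x => x ∈ M₁.E), fun x => by simp⟩
  have hEfcard : Ef.card = M₁.E.ncard := by
    rw [← Set.ncard_coe_finset]
    congr 1
    ext x
    simp [hEf]
  obtain ⟨small, hsmall⟩ : ∃ small : Finset (Finset α),
      small = (Ef.powerset).filter (fun S => S.card ≤ 4 * k - 2) := ⟨_, rfl⟩
  have hle : (bases M₁).card ≤ ((commonBases M₁ M₂) ×ˢ small).card := by
    apply Finset.card_le_card_of_injOn (fun B => (g B, (B \ g B) ∪ (g B \ B)))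
    · intro B hB
      rw [Finset.mem_coe] at hB
      obtain ⟨hgN, hgc⟩ := hg B hB
      have hB1 := (hmemB B).1 hB
      obtain ⟨hg1, hg2⟩ := (hmemN _).1 hgN
      rw [Finset.mem_coe, Finset.mem_product]
      refine ⟨hgN, ?_⟩
      rw [hsmall, Finset.mem_filter, Finset.mem_powerset]
      constructor
      · intro x hx
        rw [Finset.mem_union, Finset.mem_sdiff, Finset.mem_sdiff] at hx
        rw [hEf]
        rcases hx with hx | hx
        · exact hB1.subset_ground (by exact_mod_cast hx.1)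
        · exact hg1.subset_ground (by exact_mod_cast hx.1)
      · have hcardeq : B.card = (g B).card := by
          have h := hB1.ncard_eq_ncard_of_isBase hg1
          rwa [Set.ncard_coe_finset, Set.ncard_coe_finset] at h
        have h1 : (B \ g B).card = (g B \ B).card := Finset.card_sdiff_comm hcardeq
        have h3 := Finset.card_union_le (B \ g B) (g B \ B)
        show (B \ g B ∪ g B \ B).card ≤ 4 * k - 2
        omega
    · intro B₁ hB₁ B₂ hB₂ heq
      simp only [Prod.mk.injEq] at heq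
      obtain ⟨h1, h3⟩ := heq
      rw [h1] at h3
      ext x
      have a := Finset.ext_iff.1 h3 x
      simp only [Finset.mem_union, Finset.mem_sdiff] at a
      by_cases hx : x ∈ g B₂ <;> tauto
  rw [Finset.card_product] at hle
  have hs := card_small_le Ef (4 * k - 2)
  rw [hEfcard, ← hsmall] at hs
  calc (bases M₁).card ≤ (commonBases M₁ M₂).card * small.card := hle
    _ ≤ (commonBases M₁ M₂).card * (M₁.E.ncard + 1) ^ (4 * k - 2) :=
        Nat.mul_le_mul_left _ hs
    _ = (M₁.E.ncard + 1) ^ (4 * k - 2) * (commonBases M₁ M₂).card := Nat.mul_comm _ _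

end Vale.Agent.Results.P317.KPavingDensity
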