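import Mathlib

namespace Vale.Agent.Results.P317.PavingDensity

open Finset

variable {α : Type*}

/-- `M` is a paving matroid of rank `r`: every base has `r` elements and every circuit has at
least `r` elements. -/
def IsPaving (M : Matroid α) (r : ℕ) : Prop :=
  (∀ B : Set α, M.IsBase B → B.ncard = r) ∧ ∀ C : Set α, M.IsCircuit C → r ≤ C.ncard

/-- The finite family of bases of `M`, as finsets. -/
noncomputable def bases [Fintype α] [DecidableEq α] (M : Matroid α) : Finset (Finset α) := by
  classical exact Finset.univ.filter (fun B : Finset α => M.IsBase (B : Set α))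

/-- The finite family of common bases of `M₁` and `M₂`, as finsets. -/
noncomputable def commonBases [Fintype α] [DecidableEq α] (M₁ M₂ : Matroid α) :
    Finset (Finset α) := by
  classical exact
    Finset.univ.filter (fun B : Finset α => M₁.IsBase (B : Set α) ∧ M₂.IsBase (B : Set α))

lemma indep_isBase_of_ncard [Finite α] {M : Matroid α} {r : ℕ}
    (hr : ∀ B : Set α, M.IsBase B → B.ncard = r) {I : Set α} (hI : M.Indep I)
    (hcard : I.ncard = r) : M.IsBase I := by
  obtain ⟨B, hB, hIB⟩ := hI.exists_isBase_superset
  have h := Set.eq_of_subset_of_ncard_le hIB (by rw [hr B hB, hcard]) (Set.toFinite B)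
  rw [h]; exact hB

/-- In a paving matroid of rank `r`, an `r`-subset of the ground set that is not a base is a
circuit. -/
lemma isCircuit_of_not_isBase [Finite α] {M : Matroid α} {r : ℕ} (hp : IsPaving M r)
    {C : Set α} (hCE : C ⊆ M.E) (hcard : C.ncard = r) (hC : ¬ M.IsBase C) : M.IsCircuit C := by
  have hdep : M.Dep C := by
    rw [Matroid.dep_iff]
    exact ⟨fun h => hC (indep_isBase_of_ncard hp.1 h hcard), hCE⟩
  obtain ⟨C', hC'C, hC'⟩ := hdep.exists_isCircuit_subset
  have h := Set.eq_of_subset_of_ncard_le hC'C (by rw [hcard]; exact hp.2 C' hC') (Set.toFinite C)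
  rw [← h]; exact hC'

/-- If `M₂` is a paving matroid of rank `r`, `M₁` is any matroid on the same ground set whose
bases have `r` elements, and the two have at least one common base, then at least a
`1/(r(n-r)+1)` fraction of the bases of `M₁` are common bases (`n` the size of the ground set). -/
theorem result [Fintype α] [DecidableEq α] (M₁ M₂ : Matroid α) (r : ℕ)
    (hE : M₁.E = M₂.E) (hr : ∀ B : Set α, M₁.IsBase B → B.ncard = r)
    (h2 : IsPaving M₂ r)
    (hne : (commonBases M₁ M₂).Nonempty) :
    (bases M₁).card ≤ (r * (M₁.E.ncard - r) + 1) * (commonBases M₁ M₂).card := by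
  classical
  set X : Finset (Finset α) :=
    (bases M₁).filter (fun B : Finset α => ¬ M₂.IsBase (B : Set α)) with hXdef
  set N : Finset (Finset α) := commonBases M₁ M₂ with hNdef
  have hmemB : ∀ B : Finset α, B ∈ bases M₁ ↔ M₁.IsBase (B : Set α) := by
    intro B; simp [bases]
  have hmemN : ∀ B : Finset α, B ∈ N ↔ M₁.IsBase (B : Set α) ∧ M₂.IsBase (B : Set α) := by
    intro B; simp [hNdef, commonBases]
  have hmemX : ∀ B : Finset α, B ∈ X ↔ M₁.IsBase (B : Set α) ∧ ¬ M₂.IsBase (B : Set α) := by
    intro B; simp [hXdef, hmemB]
  have hcard : ∀ B : Finset α, M₁.IsBase (B : Set α) → B.card = r := by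
    intro B hB
    have := hr _ hB
    rwa [Set.ncard_coe_finset] at this
  -- the ground set as a finset
  set Ef : Finset α := Finset.univ.filter (fun x => x ∈ M₁.E) with hEf
  have hEfcoe : (Ef : Set α) = M₁.E := by
    ext x; simp [hEf]
  have hEfcard : Ef.card = M₁.E.ncard := by
    rw [← hEfcoe, Set.ncard_coe_finset]
  have hsplit : (bases M₁).card = X.card + N.card := by
    have h1 := Finset.card_filter_add_card_filter_not (s := bases M₁)
      (p := fun B : Finset α => ¬ M₂.IsBase (B : Set α))
    have h3 : (bases M₁).filter (fun B : Finset α => ¬ ¬ M₂.IsBase (B : Set α)) = N := by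
      ext B
      simp only [Finset.mem_filter, hmemB, hmemN, not_not]
    rw [h3] at h1
    exact h1.symm
  obtain ⟨B₀, hB₀⟩ := hne
  obtain ⟨hB₀1, hB₀2⟩ := (hmemN B₀).1 hB₀
  let R : Finset α → Finset α → Prop :=
    fun C B => ∃ e f, e ∈ C ∧ f ∉ C ∧ B = insert f (C.erase e)
  have hmain : X.card * 1 ≤ N.card * (r * (M₁.E.ncard - r)) := by
    apply Finset.card_mul_le_card_mul R
    · -- every member of `X` has a neighbour in `N`
      intro C hC
      obtain ⟨hC1, hC2⟩ := (hmemX C).1 hC
      rw [Nat.succ_le_iff, Finset.card_pos]
      have hCE : (C : Set α) ⊆ M₂.E := hE ▸ hC1.subset_ground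
      have hCc : M₂.IsCircuit (C : Set α) := isCircuit_of_not_isBase h2 hCE (hr _ hC1) hC2
      obtain ⟨e₀, he₀⟩ := hCc.nonempty
      -- an element of the common base outside the closure of `C`
      obtain ⟨f, hfB₀, hfcl⟩ : ∃ f, f ∈ (B₀ : Set α) ∧ f ∉ M₂.closure (C : Set α) := by
        by_contra hcon
        push Not at hcon
        have hsub : (B₀ : Set α) ⊆ M₂.closure ((C : Set α) \ {e₀}) := by
          rw [hCc.closure_sdiff_singleton_eq e₀]; exact hcon
        have h1 := M₂.closure_subset_closure_of_subset_closure hsub
        rw [hB₀2.closure_eq] at h1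
        have hI := hCc.sdiff_singleton_indep he₀
        have hbase := hI.isBase_of_ground_subset_closure h1
        have h3 := h2.1 _ hbase
        rw [Set.ncard_sdiff_singleton_of_mem he₀, hr _ hC1] at h3
        have h4 : 0 < (C : Set α).ncard := (Set.ncard_pos (Set.toFinite _)).2 ⟨e₀, he₀⟩
        rw [hr _ hC1] at h4
        omega
      have hfE₂ : f ∈ M₂.E := hB₀2.subset_ground hfB₀
      have hfE₁ : f ∈ M₁.E := hB₀1.subset_ground hfB₀
      have hfC : f ∉ (C : Set α) := fun h => hfcl (M₂.subset_closure (C : Set α) hCE h)
      -- exchange in `M₁` through the fundamental circuit of `f`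
      have hfcl₁ : f ∈ M₁.closure (C : Set α) := by rw [hC1.closure_eq]; exact hfE₁
      have hK : M₁.IsCircuit (M₁.fundCircuit f (C : Set α)) :=
        hC1.indep.fundCircuit_isCircuit hfcl₁ hfC
      obtain ⟨e, heK, heB₀⟩ : ∃ e, e ∈ M₁.fundCircuit f (C : Set α) ∧ e ∉ (B₀ : Set α) := by
        by_contra hcon
        push Not at hcon
        exact hK.not_indep (hB₀1.indep.subset hcon)
      have hef : e ≠ f := fun h => heB₀ (h ▸ hfB₀)
      have heC : e ∈ (C : Set α) := by
        rcases M₁.fundCircuit_subset_insert f (C : Set α) heK with h | h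
        · exact absurd h hef
        · exact h
      have hind₁ : M₁.Indep (insert f (C : Set α) \ {e}) :=
        (hC1.indep.mem_fundCircuit_iff hfcl₁ hfC).1 heK
      have hbase₁ : M₁.IsBase (insert f (C : Set α) \ {e}) :=
        hC1.exchange_isBase_of_indep' heC hfC hind₁
      have hseteq : insert f (C : Set α) \ {e} = insert f ((C : Set α) \ {e}) :=
        (Set.insert_sdiff_singleton_comm hef.symm _).symm
      rw [hseteq] at hbase₁
      -- the exchanged set is a base of `M₂`
      have hind₂ : M₂.Indep (insert f ((C : Set α) \ {e})) := by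
        have hI := hCc.sdiff_singleton_indep heC
        rw [hI.insert_indep_iff_of_notMem (fun h => hfC h.1)]
        refine ⟨hfE₂, ?_⟩
        rw [hCc.closure_sdiff_singleton_eq e]
        exact hfcl
      have hbase₂ : M₂.IsBase (insert f ((C : Set α) \ {e})) :=
        indep_isBase_of_ncard h2.1 hind₂ (hr _ hbase₁)
      have hfC' : f ∉ C := fun h => hfC (by exact_mod_cast h)
      have heC' : e ∈ C := by exact_mod_cast heC
      refine ⟨insert f (C.erase e), ?_⟩
      rw [Finset.mem_bipartiteAbove]
      have hcoe : ((insert f (C.erase e) : Finset α) : Set α) = insert f ((C : Set α) \ {e}) := by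
        push_cast
        rfl
      refine ⟨?_, e, f, heC', hfC', rfl⟩
      rw [hmemN, hcoe]
      exact ⟨hbase₁, hbase₂⟩
    · -- every common base has at most `r (n - r)` neighbours
      intro B hB
      obtain ⟨hB1, hB2⟩ := (hmemN B).1 hB
      have hBcard : B.card = r := hcard B hB1
      have hBE : B ⊆ Ef := by
        intro x hx
        have : x ∈ (Ef : Set α) := by
          rw [hEfcoe]; exact hB1.subset_ground (by exact_mod_cast hx)
        exact_mod_cast this
      have hle : (X.bipartiteBelow R B).card ≤
          ((B.powersetCard 1) ×ˢ ((Ef \ B).powersetCard 1)).card := by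
        apply Finset.card_le_card_of_injOn (fun C => (B \ C, C \ B))
        · intro C hC
          rw [Finset.mem_coe, Finset.mem_bipartiteBelow] at hC
          obtain ⟨hCX, e, f, he, hf, rfl⟩ := hC
          have hCE : C ⊆ Ef := by
            intro x hx
            have : x ∈ (Ef : Set α) := by
              rw [hEfcoe]
              exact ((hmemX C).1 hCX).1.subset_ground (by exact_mod_cast hx)
            exact_mod_cast this
          have hef : e ≠ f := fun h => hf (h ▸ he)
          have h1 : insert f (C.erase e) \ C = {f} := by
            ext x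
            simp only [Finset.mem_sdiff, Finset.mem_insert, Finset.mem_erase,
              Finset.mem_singleton]
            constructor
            · rintro ⟨h | h, hx⟩
              · exact h
              · exact absurd h.2 hx
            · rintro rfl
              exact ⟨Or.inl rfl, hf⟩
          have h2' : C \ insert f (C.erase e) = {e} := by
            ext x
            simp only [Finset.mem_sdiff, Finset.mem_insert, Finset.mem_erase,
              Finset.mem_singleton, not_or, not_and]
            constructor
            · rintro ⟨hx, -, h⟩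
              by_contra hxe
              exact h hxe hx
            · rintro rfl
              exact ⟨he, hef, fun h => absurd rfl h⟩
          rw [Finset.mem_coe, Finset.mem_product, Finset.mem_powersetCard,
            Finset.mem_powersetCard]
          refine ⟨⟨Finset.sdiff_subset, ?_⟩, ?_, ?_⟩
          · show (insert f (C.erase e) \ C).card = 1
            rw [h1, Finset.card_singleton]
          · show C \ insert f (C.erase e) ⊆ Ef \ insert f (C.erase e)
            exact Finset.sdiff_subset_sdiff hCE (le_refl _)
          · show (C \ insert f (C.erase e)).card = 1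
            rw [h2', Finset.card_singleton]
        · intro C₁ hC₁ C₂ hC₂ heq
          simp only [Prod.mk.injEq] at heq
          obtain ⟨h1, h2'⟩ := heq
          ext x
          have a1 := Finset.ext_iff.1 h1 x
          have a2 := Finset.ext_iff.1 h2' x
          simp only [Finset.mem_sdiff] at a1 a2
          by_cases hx : x ∈ B
          · tauto
          · tauto
      rw [Finset.card_product, Finset.card_powersetCard, Finset.card_powersetCard,
        Nat.choose_one_right, Nat.choose_one_right, hBcard, Finset.card_sdiff_of_subset hBE,
        hBcard, hEfcard] at hle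
      exact hle
  rw [hsplit]
  nlinarith [hmain]

end Vale.Agent.Results.P317.PavingDensity
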