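import Mathlib

namespace Vale.Agent.Results.P317.SparsePavingDensity

open Finset

variable {α : Type*}

/-- `M` is a sparse paving matroid of rank `r`: every base has `r` elements, and every
`r`-element subset of the ground set is a base or a circuit-hyperplane
(a circuit that is also a flat). -/
def IsSparsePaving (M : Matroid α) (r : ℕ) : Prop :=
  (∀ B : Set α, M.IsBase B → B.ncard = r) ∧
  ∀ X : Set α, X ⊆ M.E → X.ncard = r → (M.IsBase X ∨ (M.IsCircuit X ∧ M.IsFlat X))

/-- The finite family of bases of `M`, as finsets. -/
noncomputable def bases [Fintype α] [DecidableEq α] (M : Matroid α) : Finset (Finset α) := by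
  classical exact Finset.univ.filter (fun B : Finset α => M.IsBase (B : Set α))

/-- The finite family of common bases of `M₁` and `M₂`, as finsets. -/
noncomputable def commonBases [Fintype α] [DecidableEq α] (M₁ M₂ : Matroid α) :
    Finset (Finset α) := by
  classical exact
    Finset.univ.filter (fun B : Finset α => M₁.IsBase (B : Set α) ∧ M₂.IsBase (B : Set α))

lemma key {M : Matroid α} {X X' : Set α} {e : α} (hX' : M.IsCircuit X') (hX : M.IsFlat X)
    (he : e ∈ X') (hsub : X' \ {e} ⊆ X) : e ∈ X := by
  have h1 : e ∈ M.closure (X' \ {e}) := hX'.mem_closure_sdiff_singleton_of_mem he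
  have h2 : M.closure (X' \ {e}) ⊆ M.closure X := M.closure_subset_closure hsub
  rw [hX.closure] at h2
  exact h2 h1

/-- If `M₂` is sparse paving of rank `r` and `M₁` is any matroid on the same ground set whose
bases have `r` elements and which has at least two bases, then at least a `1/(r+1)` fraction of
the bases of `M₁` are common bases of `M₁` and `M₂`. -/
theorem result [Fintype α] [DecidableEq α] (M₁ M₂ : Matroid α) (r : ℕ)
    (hE : M₁.E = M₂.E) (hr : ∀ B : Set α, M₁.IsBase B → B.ncard = r)
    (h2 : IsSparsePaving M₂ r)
    (hne : ∃ B B' : Set α, M₁.IsBase B ∧ M₁.IsBase B' ∧ B ≠ B') :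
    (bases M₁).card ≤ (r + 1) * (commonBases M₁ M₂).card := by
  classical
  obtain ⟨h2r, h2sp⟩ := h2
  -- the bases of `M₁` that are not bases of `M₂`
  set X : Finset (Finset α) :=
    (bases M₁).filter (fun B : Finset α => ¬ M₂.IsBase (B : Set α)) with hXdef
  set N : Finset (Finset α) := commonBases M₁ M₂ with hNdef
  have hmemB : ∀ B : Finset α, B ∈ bases M₁ ↔ M₁.IsBase (B : Set α) := by
    intro B; simp [bases]
  have hmemN : ∀ B : Finset α, B ∈ N ↔ M₁.IsBase (B : Set α) ∧ M₂.IsBase (B : Set α) := by
    intro B; simp [hNdef, commonBases]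
  have hmemX : ∀ B : Finset α, B ∈ X ↔ M₁.IsBase (B : Set α) ∧ ¬ M₂.IsBase (B : Set α) := by
    intro B; simp [hXdef, hmemB]
  have hcard : ∀ B : Finset α, M₁.IsBase (B : Set α) → B.card = r := by
    intro B hB
    have := hr _ hB
    rwa [Set.ncard_coe_finset] at this
  -- members of `X` are circuit-hyperplanes of `M₂`
  have hXcf : ∀ C : Finset α, C ∈ X → M₂.IsCircuit (C : Set α) ∧ M₂.IsFlat (C : Set α) := by
    intro C hC
    obtain ⟨hC1, hC2⟩ := (hmemX C).1 hC
    have hsub : (C : Set α) ⊆ M₂.E := hE ▸ hC1.subset_ground
    rcases h2sp _ hsub (hr _ hC1) with h | h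
    · exact absurd h hC2
    · exact h
  -- split the bases of `M₁`
  have hsplit : (bases M₁).card = X.card + N.card := by
    have h1 := Finset.card_filter_add_card_filter_not (s := bases M₁)
      (p := fun B : Finset α => ¬ M₂.IsBase (B : Set α))
    have h3 : (bases M₁).filter (fun B : Finset α => ¬ ¬ M₂.IsBase (B : Set α)) = N := by
      ext B
      simp only [Finset.mem_filter, hmemB, hmemN, not_not]
    rw [h3] at h1
    exact h1.symm
  -- adjacency relation
  let R : Finset α → Finset α → Prop :=
    fun C B => ∃ e f, e ∈ C ∧ f ∉ C ∧ B = insert f (C.erase e)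
  have hmain : X.card * 1 ≤ N.card * r := by
    apply Finset.card_mul_le_card_mul R
    · -- every member of `X` has a neighbour in `N`
      intro C hC
      obtain ⟨hC1, hC2⟩ := (hmemX C).1 hC
      obtain ⟨hCc, hCf⟩ := hXcf C hC
      rw [Nat.succ_le_iff, Finset.card_pos]
      -- another base of `M₁`
      obtain ⟨B', hB', hne'⟩ : ∃ B' : Set α, M₁.IsBase B' ∧ B' ≠ (C : Set α) := by
        obtain ⟨B, B', hB, hB', hBB'⟩ := hne
        by_cases h : B = (C : Set α)
        · exact ⟨B', hB', fun h' => hBB' (h.trans h'.symm)⟩
        · exact ⟨B, hB, h⟩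
      have hnsub : ¬ (C : Set α) ⊆ B' := fun h => hne' (hC1.eq_of_subset_isBase hB' h).symm
      obtain ⟨e, heC, heB'⟩ := Set.not_subset.1 hnsub
      obtain ⟨f, hf, hfB⟩ := hC1.exchange hB' ⟨heC, heB'⟩
      have hfC : f ∉ C := fun h => hf.2 (by exact_mod_cast h)
      have heC' : e ∈ C := by exact_mod_cast heC
      refine ⟨insert f (C.erase e), ?_⟩
      rw [Finset.mem_bipartiteAbove]
      have hcoe : ((insert f (C.erase e) : Finset α) : Set α) = insert f ((C : Set α) \ {e}) := by
        push_cast
        rfl
      refine ⟨?_, e, f, heC', hfC, rfl⟩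
      rw [hmemN, hcoe]
      refine ⟨hfB, ?_⟩
      have hsub : insert f ((C : Set α) \ {e}) ⊆ M₂.E := hE ▸ hfB.subset_ground
      rcases h2sp _ hsub (hr _ hfB) with h | h
      · exact h
      · exfalso
        have hmem : e ∈ insert f ((C : Set α) \ {e}) :=
          key hCc h.2 heC (Set.subset_insert _ _)
        rcases hmem with h' | h'
        · exact hfC (h' ▸ heC')
        · exact h'.2 rfl
    · -- every common base has at most `r` neighbours in `X`
      intro B hB
      obtain ⟨hB1, hB2⟩ := (hmemN B).1 hB
      have hBcard : B.card = r := hcard B hB1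
      have hle : (X.bipartiteBelow R B).card ≤ (B.powersetCard 1).card := by
        apply Finset.card_le_card_of_injOn (fun C => B \ C)
        · intro C hC
          rw [Finset.mem_coe, Finset.mem_bipartiteBelow] at hC
          obtain ⟨hCX, e, f, he, hf, rfl⟩ := hC
          rw [Finset.mem_coe, Finset.mem_powersetCard]
          refine ⟨Finset.sdiff_subset, ?_⟩
          have : insert f (C.erase e) \ C = {f} := by
            ext x
            simp only [Finset.mem_sdiff, Finset.mem_insert, Finset.mem_erase,
              Finset.mem_singleton]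
            constructor
            · rintro ⟨h | h, hx⟩
              · exact h
              · exact absurd h.2 hx
            · rintro rfl
              exact ⟨Or.inl rfl, hf⟩
          show (insert f (C.erase e) \ C).card = 1
          rw [this, Finset.card_singleton]
        · intro C₁ hC₁ C₂ hC₂ heq
          rw [Finset.mem_coe, Finset.mem_bipartiteBelow] at hC₁ hC₂
          obtain ⟨hC₁X, e₁, f₁, he₁, hf₁, hB₁⟩ := hC₁
          obtain ⟨hC₂X, e₂, f₂, he₂, hf₂, hB₂⟩ := hC₂
          have hd₁ : B \ C₁ = {f₁} := by
            rw [hB₁]
            ext x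
            simp only [Finset.mem_sdiff, Finset.mem_insert, Finset.mem_erase,
              Finset.mem_singleton]
            constructor
            · rintro ⟨h | h, hx⟩
              · exact h
              · exact absurd h.2 hx
            · rintro rfl
              exact ⟨Or.inl rfl, hf₁⟩
          have hd₂ : B \ C₂ = {f₂} := by
            rw [hB₂]
            ext x
            simp only [Finset.mem_sdiff, Finset.mem_insert, Finset.mem_erase,
              Finset.mem_singleton]
            constructor
            · rintro ⟨h | h, hx⟩
              · exact h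
              · exact absurd h.2 hx
            · rintro rfl
              exact ⟨Or.inl rfl, hf₂⟩
          have hff : f₁ = f₂ := by
            have : ({f₁} : Finset α) = {f₂} := by rw [← hd₁, ← hd₂]; exact heq
            exact Finset.singleton_injective this
          subst hff
          -- `C₁.erase e₁ = B.erase f₁ = C₂.erase e₂`
          have hE₁ : C₁.erase e₁ = B.erase f₁ := by
            rw [hB₁, Finset.erase_insert]
            simp [hf₁]
          have hE₂ : C₂.erase e₂ = B.erase f₁ := by
            rw [hB₂, Finset.erase_insert]
            simp [hf₂]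
          have hC₁eq : C₁ = insert e₁ (B.erase f₁) := by
            rw [← hE₁, Finset.insert_erase he₁]
          have hC₂eq : C₂ = insert e₂ (B.erase f₁) := by
            rw [← hE₂, Finset.insert_erase he₂]
          by_cases hee : e₁ = e₂
          · rw [hC₁eq, hC₂eq, hee]
          · exfalso
            obtain ⟨hc₁, -⟩ := hXcf C₁ hC₁X
            obtain ⟨-, hfl₂⟩ := hXcf C₂ hC₂X
            have hsub : (C₁ : Set α) \ {e₁} ⊆ (C₂ : Set α) := by
              intro x hx
              have hx1 : x ∈ C₁.erase e₁ := by
                rw [Finset.mem_erase]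
                exact ⟨hx.2, by exact_mod_cast hx.1⟩
              rw [hE₁, ← hE₂] at hx1
              exact_mod_cast (Finset.mem_of_mem_erase hx1)
            have hmem : e₁ ∈ (C₂ : Set α) := key hc₁ hfl₂ (by exact_mod_cast he₁) hsub
            have hmem' : e₁ ∈ C₂ := by exact_mod_cast hmem
            rw [hC₂eq, Finset.mem_insert] at hmem'
            rcases hmem' with h | h
            · exact hee h
            · rw [← hE₁] at h
              exact (Finset.notMem_erase e₁ C₁) h
      rw [Finset.card_powersetCard, Nat.choose_one_right, hBcard] at hle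
      exact hle
  rw [hsplit]
  nlinarith [hmain]

end Vale.Agent.Results.P317.SparsePavingDensity
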